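import Mathlib

/-!
# Permanence of mass-action systems is stable under unions of networks with disjoint species
-/

open Set

namespace Vale.Agent.Results.P072.DisjointUnions

/-- a finite reaction network with species set `ι` and reactions indexed by `ρ`:
source complexes, target complexes and positive rate constants -/
structure Network (ι ρ : Type) where
  src : ρ → ι → ℕ
  tgt : ρ → ι → ℕ
  rate : ρ → ℝ
  rate_pos : ∀ r, 0 < rate r

variable {ι κ ρ σ : Type} [Fintype ι] [Fintype κ] [Fintype ρ] [Fintype σ]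

/-- the mass-action vector field -/
noncomputable def field (N : Network ι ρ) (x : ι → ℝ) : ι → ℝ := fun i =>
  ∑ r, N.rate r * (∏ j, x j ^ N.src r j) * ((N.tgt r i : ℝ) - (N.src r i : ℝ))

/-- every reaction `y → y'` can be undone by a directed path of reactions from `y'` to `y` -/
def WeaklyReversible (N : Network ι ρ) : Prop :=
  ∀ r, Relation.ReflTransGen (fun y y' => ∃ s, y = N.src s ∧ y' = N.tgt s) (N.tgt r) (N.src r)

/-- the stoichiometric subspace -/
def stoich (N : Network ι ρ) : Submodule ℝ (ι → ℝ) :=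
  Submodule.span ℝ (range fun r => fun i => (N.tgt r i : ℝ) - (N.src r i : ℝ))

/-- the positive stoichiometric class of `c` -/
def posClass (N : Network ι ρ) (c : ι → ℝ) : Set (ι → ℝ) :=
  {x | x - c ∈ stoich N ∧ ∀ i, 0 < x i}

/-- `x` is a positive solution on `[0, ∞)` -/
def IsSol (N : Network ι ρ) (x : ℝ → ι → ℝ) : Prop :=
  ∀ t, 0 ≤ t → (∀ i, 0 < x t i) ∧ HasDerivWithinAt x (field N (x t)) (Ici 0) t

/-- permanence on every positive stoichiometric class: all solutions which start in the class `P`
are global and positive, and one compact subset of `P` eventually contains each of them -/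
def Permanent (N : Network ι ρ) : Prop :=
  ∀ c : ι → ℝ, (∀ i, 0 < c i) →
    (∀ a ∈ posClass N c, ∃ x, IsSol N x ∧ x 0 = a) ∧
    ∃ K : Set (ι → ℝ), IsCompact K ∧ K ⊆ posClass N c ∧
      ∀ x, IsSol N x → x 0 ∈ posClass N c → ∃ T, ∀ t, T ≤ t → x t ∈ K

/-- the union of two networks with disjoint sets of species -/
def union (N : Network ι ρ) (M : Network κ σ) : Network (ι ⊕ κ) (ρ ⊕ σ) where
  src := Sum.elim (fun r => Sum.elim (N.src r) 0) (fun s => Sum.elim 0 (M.src s))
  tgt := Sum.elim (fun r => Sum.elim (N.tgt r) 0) (fun s => Sum.elim 0 (M.tgt s))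
  rate := Sum.elim N.rate M.rate
  rate_pos := by
    rintro (r | s)
    · exact N.rate_pos r
    · exact M.rate_pos s

theorem field_inl (N : Network ι ρ) (M : Network κ σ) (x : ι ⊕ κ → ℝ) (i : ι) :
    field (union N M) x (Sum.inl i) = field N (fun i => x (Sum.inl i)) i := by
  unfold field
  rw [Fintype.sum_sum_type]
  have h2 : ∑ s : σ, (union N M).rate (Sum.inr s) *
      (∏ j, x j ^ (union N M).src (Sum.inr s) j) *
      (((union N M).tgt (Sum.inr s) (Sum.inl i) : ℝ) -
        ((union N M).src (Sum.inr s) (Sum.inl i) : ℝ)) = 0 := by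
    refine Finset.sum_eq_zero fun s _ => ?_
    simp [union]
  rw [h2, add_zero]
  refine Finset.sum_congr rfl fun r _ => ?_
  simp [union, Fintype.prod_sum_type]

theorem field_inr (N : Network ι ρ) (M : Network κ σ) (x : ι ⊕ κ → ℝ) (j : κ) :
    field (union N M) x (Sum.inr j) = field M (fun j => x (Sum.inr j)) j := by
  unfold field
  rw [Fintype.sum_sum_type]
  have h2 : ∑ r : ρ, (union N M).rate (Sum.inl r) *
      (∏ j, x j ^ (union N M).src (Sum.inl r) j) *
      (((union N M).tgt (Sum.inl r) (Sum.inr j) : ℝ) -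
        ((union N M).src (Sum.inl r) (Sum.inr j) : ℝ)) = 0 := by
    refine Finset.sum_eq_zero fun s _ => ?_
    simp [union]
  rw [h2, zero_add]
  refine Finset.sum_congr rfl fun r _ => ?_
  simp [union, Fintype.prod_sum_type]

theorem mem_stoich (N : Network ι ρ) (M : Network κ σ) (v : ι ⊕ κ → ℝ) :
    v ∈ stoich (union N M) ↔
      (fun i => v (Sum.inl i)) ∈ stoich N ∧ (fun j => v (Sum.inr j)) ∈ stoich M := by
  constructor
  · intro h
    unfold stoich at h
    induction h using Submodule.span_induction with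
    | mem x hx =>
      obtain ⟨r | s, rfl⟩ := hx
      · refine ⟨Submodule.subset_span ⟨r, ?_⟩, ?_⟩
        · funext i
          simp [union]
        · have : (fun j : κ => (fun i => ((union N M).tgt (Sum.inl r) i : ℝ) -
              ((union N M).src (Sum.inl r) i : ℝ)) (Sum.inr j)) = 0 := by
            funext j
            simp [union]
          rw [this]
          exact Submodule.zero_mem _
      · refine ⟨?_, Submodule.subset_span ⟨s, ?_⟩⟩
        · have : (fun j : ι => (fun i => ((union N M).tgt (Sum.inr s) i : ℝ) -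
              ((union N M).src (Sum.inr s) i : ℝ)) (Sum.inl j)) = 0 := by
            funext j
            simp [union]
          rw [this]
          exact Submodule.zero_mem _
        · funext i
          simp [union]
    | zero => exact ⟨Submodule.zero_mem _, Submodule.zero_mem _⟩
    | add x y _ _ hx hy => exact ⟨Submodule.add_mem _ hx.1 hy.1, Submodule.add_mem _ hx.2 hy.2⟩
    | smul a x _ hx => exact ⟨Submodule.smul_mem _ a hx.1, Submodule.smul_mem _ a hx.2⟩
  · rintro ⟨h1, h2⟩
    have e1 : ∀ u ∈ stoich N, (Sum.elim u 0 : ι ⊕ κ → ℝ) ∈ stoich (union N M) := by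
      intro u hu
      unfold stoich at hu
      induction hu using Submodule.span_induction with
      | mem x hx =>
        obtain ⟨r, rfl⟩ := hx
        refine Submodule.subset_span ⟨Sum.inl r, ?_⟩
        funext i
        cases i <;> simp [union]
      | zero =>
        have : (Sum.elim 0 0 : ι ⊕ κ → ℝ) = 0 := by
          funext i
          cases i <;> rfl
        rw [this]
        exact Submodule.zero_mem _
      | add x y _ _ hx hy =>
        have : (Sum.elim (x + y) 0 : ι ⊕ κ → ℝ) =
            (Sum.elim x 0 : ι ⊕ κ → ℝ) + (Sum.elim y 0 : ι ⊕ κ → ℝ) := by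
          funext i
          cases i <;> simp
        rw [this]
        exact Submodule.add_mem _ hx hy
      | smul a x _ hx =>
        have : (Sum.elim (a • x) 0 : ι ⊕ κ → ℝ) = a • Sum.elim x 0 := by
          funext i
          cases i <;> simp
        rw [this]
        exact Submodule.smul_mem _ a hx
    have e2 : ∀ u ∈ stoich M, (Sum.elim 0 u : ι ⊕ κ → ℝ) ∈ stoich (union N M) := by
      intro u hu
      unfold stoich at hu
      induction hu using Submodule.span_induction with
      | mem x hx =>
        obtain ⟨r, rfl⟩ := hx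
        refine Submodule.subset_span ⟨Sum.inr r, ?_⟩
        funext i
        cases i <;> simp [union]
      | zero =>
        have : (Sum.elim 0 0 : ι ⊕ κ → ℝ) = 0 := by
          funext i
          cases i <;> rfl
        rw [this]
        exact Submodule.zero_mem _
      | add x y _ _ hx hy =>
        have : (Sum.elim 0 (x + y) : ι ⊕ κ → ℝ) = (Sum.elim 0 x : ι ⊕ κ → ℝ) + (Sum.elim 0 y : ι ⊕ κ → ℝ) := by
          funext i
          cases i <;> simp
        rw [this]
        exact Submodule.add_mem _ hx hy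
      | smul a x _ hx =>
        have : (Sum.elim 0 (a • x) : ι ⊕ κ → ℝ) = a • (Sum.elim 0 x : ι ⊕ κ → ℝ) := by
          funext i
          cases i <;> simp
        rw [this]
        exact Submodule.smul_mem _ a hx
    have h3 : v = (Sum.elim (fun i => v (Sum.inl i)) 0 : ι ⊕ κ → ℝ) +
        (Sum.elim 0 (fun j => v (Sum.inr j)) : ι ⊕ κ → ℝ) := by
      funext i
      cases i <;> simp
    rw [h3]
    exact Submodule.add_mem _ (e1 _ h1) (e2 _ h2)

theorem mem_posClass (N : Network ι ρ) (M : Network κ σ) (c x : ι ⊕ κ → ℝ) :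
    x ∈ posClass (union N M) c ↔
      (fun i => x (Sum.inl i)) ∈ posClass N (fun i => c (Sum.inl i)) ∧
      (fun j => x (Sum.inr j)) ∈ posClass M (fun j => c (Sum.inr j)) := by
  constructor
  · rintro ⟨h1, h2⟩
    have h3 := (mem_stoich N M _).1 h1
    exact ⟨⟨h3.1, fun i => h2 _⟩, ⟨h3.2, fun i => h2 _⟩⟩
  · rintro ⟨⟨h1, h2⟩, ⟨h3, h4⟩⟩
    refine ⟨(mem_stoich N M _).2 ⟨h1, h3⟩, ?_⟩
    rintro (i | j)
    · exact h2 i
    · exact h4 j

theorem sol_left {N : Network ι ρ} {M : Network κ σ} {x : ℝ → ι ⊕ κ → ℝ}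
    (hx : IsSol (union N M) x) : IsSol N fun t i => x t (Sum.inl i) := by
  intro t ht
  obtain ⟨h1, h2⟩ := hx t ht
  refine ⟨fun i => h1 _, ?_⟩
  rw [hasDerivWithinAt_pi] at h2 ⊢
  intro i
  rw [← field_inl N M]
  exact h2 _

theorem sol_right {N : Network ι ρ} {M : Network κ σ} {x : ℝ → ι ⊕ κ → ℝ}
    (hx : IsSol (union N M) x) : IsSol M fun t j => x t (Sum.inr j) := by
  intro t ht
  obtain ⟨h1, h2⟩ := hx t ht
  refine ⟨fun i => h1 _, ?_⟩
  rw [hasDerivWithinAt_pi] at h2 ⊢
  intro i
  rw [← field_inr N M]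
  exact h2 _

theorem sol_union {N : Network ι ρ} {M : Network κ σ} {x : ℝ → ι → ℝ} {y : ℝ → κ → ℝ}
    (hx : IsSol N x) (hy : IsSol M y) : IsSol (union N M) fun t => Sum.elim (x t) (y t) := by
  intro t ht
  obtain ⟨h1, h2⟩ := hx t ht
  obtain ⟨h3, h4⟩ := hy t ht
  refine ⟨?_, ?_⟩
  · rintro (i | j)
    · exact h1 i
    · exact h3 j
  · rw [hasDerivWithinAt_pi] at h2 h4 ⊢
    rintro (i | j)
    · rw [field_inl N M]
      exact h2 i
    · rw [field_inr N M]
      exact h4 j

theorem permanent_union {N : Network ι ρ} {M : Network κ σ} (hN : Permanent N)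
    (hM : Permanent M) : Permanent (union N M) := by
  intro c hc
  obtain ⟨hN1, K, hK, hKP, hKt⟩ := hN (fun i => c (Sum.inl i)) (fun i => hc _)
  obtain ⟨hM1, L, hL, hLP, hLt⟩ := hM (fun j => c (Sum.inr j)) (fun j => hc _)
  refine ⟨?_, (fun p : (ι → ℝ) × (κ → ℝ) => (Sum.elim p.1 p.2 : ι ⊕ κ → ℝ)) '' (K ×ˢ L),
    ?_, ?_, ?_⟩
  · intro a ha
    have h := (mem_posClass N M c a).1 ha
    obtain ⟨x, hx, hx0⟩ := hN1 _ h.1
    obtain ⟨y, hy, hy0⟩ := hM1 _ h.2
    refine ⟨_, sol_union hx hy, ?_⟩
    funext s
    cases s with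
    | inl i => exact congrFun hx0 i
    | inr j => exact congrFun hy0 j
  · refine (hK.prod hL).image ?_
    refine continuous_pi fun s => ?_
    cases s
    · exact (continuous_apply _).comp continuous_fst
    · exact (continuous_apply _).comp continuous_snd
  · rintro _ ⟨⟨a, b⟩, ⟨ha, hb⟩, rfl⟩
    exact (mem_posClass N M c _).2 ⟨hKP ha, hLP hb⟩
  · intro x hx hx0
    have h := (mem_posClass N M c _).1 hx0
    obtain ⟨T, hT⟩ := hKt _ (sol_left hx) h.1
    obtain ⟨T', hT'⟩ := hLt _ (sol_right hx) h.2
    refine ⟨max T T', fun t ht => ⟨(fun i => x t (Sum.inl i), fun j => x t (Sum.inr j)),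
      ⟨hT t (le_trans (le_max_left _ _) ht), hT' t (le_trans (le_max_right _ _) ht)⟩, ?_⟩⟩
    funext s
    cases s <;> rfl

omit [Fintype ι] [Fintype κ] [Fintype ρ] [Fintype σ] in
theorem weakly_union {N : Network ι ρ} {M : Network κ σ} (hN : WeaklyReversible N)
    (hM : WeaklyReversible M) : WeaklyReversible (union N M) := by
  rintro (r | s)
  · have h := hN r
    have h2 := h.lift (p := fun y y' => ∃ s, y = (union N M).src s ∧ y' = (union N M).tgt s)
      (fun y => (Sum.elim y 0 : ι ⊕ κ → ℕ)) (by
        rintro a b ⟨s, rfl, rfl⟩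
        exact ⟨Sum.inl s, rfl, rfl⟩)
    exact h2
  · have h := hM s
    have h2 := h.lift (p := fun y y' => ∃ s, y = (union N M).src s ∧ y' = (union N M).tgt s)
      (fun y => (Sum.elim 0 y : ι ⊕ κ → ℕ)) (by
        rintro a b ⟨s, rfl, rfl⟩
        exact ⟨Sum.inr s, rfl, rfl⟩)
    exact h2

/-- The main result: if two mass-action systems with disjoint sets of species are permanent on all
their positive stoichiometric classes, so is their union; unions of weakly reversible networks are
weakly reversible. -/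
theorem result (N : Network ι ρ) (M : Network κ σ) :
    (Permanent N → Permanent M → Permanent (union N M)) ∧
    (WeaklyReversible N → WeaklyReversible M → WeaklyReversible (union N M)) :=
  ⟨permanent_union, weakly_union⟩

end Vale.Agent.Results.P072.DisjointUnions
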